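import Mathlib

/-!
P207, line N4, step 8 (helper12, helper576).  Part XB1: quadratic maps (closed under pointwise
limits), polar bounds, ultrafilter limits.
-/

set_option autoImplicit false

namespace Vale.Agent.P207.H12.XB

open Real Filter Topology

variable {E : Type*} [NormedAddCommGroup E] [InnerProductSpace ℝ E]
variable {F : Type*} [NormedAddCommGroup F] [NormedSpace ℝ F]

/-- quadratic maps, by identities (so that the class is visibly closed under limits) -/
structure IsQ (g : E → F) : Prop where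
  add : ∀ x x' y, g (x + x' + y) + g x + g x' + g y = g (x + x') + g (x' + y) + g (x + y)
  smul : ∀ (c : ℝ) x y, g (c • x + y) = g (c • x) + g y + c • (g (x + y) - g x - g y)
  hom : ∀ (c : ℝ) x, g (c • x) = c ^ 2 • g x

lemma IsQ.of_bilin (c : E →ₗ[ℝ] E →ₗ[ℝ] F) : IsQ (fun x => c x x) where
  add x x' y := by simp only [map_add, LinearMap.add_apply]; abel
  smul a x y := by
    simp only [map_add, map_smul, LinearMap.add_apply, LinearMap.smul_apply]
    module
  hom a x := by
    simp only [map_smul, LinearMap.smul_apply]; module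

lemma IsQ.zero : IsQ (fun _ : E => (0 : F)) where
  add _ _ _ := by simp
  smul _ _ _ := by simp
  hom _ _ := by simp

lemma IsQ.add' {g h : E → F} (hg : IsQ g) (hh : IsQ h) : IsQ (fun x => g x + h x) where
  add x x' y := by
    have a := hg.add x x' y
    have b := hh.add x x' y
    have : g (x + x' + y) + h (x + x' + y) + (g x + h x) + (g x' + h x') + (g y + h y) =
      (g (x + x' + y) + g x + g x' + g y) + (h (x + x' + y) + h x + h x' + h y) := by abel
    rw [this, a, b]; abel
  smul c x y := by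
    rw [hg.smul, hh.smul]; module
  hom c x := by rw [hg.hom, hh.hom]; module

lemma IsQ.const_smul {g : E → F} (hg : IsQ g) (a : ℝ) : IsQ (fun x => a • g x) where
  add x x' y := by
    have := congrArg (fun t => a • t) (hg.add x x' y)
    simpa only [smul_add] using this
  smul c x y := by rw [hg.smul]; module
  hom c x := by rw [hg.hom]; module

lemma IsQ.sub' {g h : E → F} (hg : IsQ g) (hh : IsQ h) : IsQ (fun x => g x - h x) := by
  have := hg.add' (hh.const_smul (-1))
  refine cast (congrArg IsQ (funext fun x => ?_)) this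
  simp [sub_eq_add_neg]

lemma IsQ.sum {ι : Type*} (s : Finset ι) {g : ι → E → F} (hg : ∀ i ∈ s, IsQ (g i)) :
    IsQ (fun x => ∑ i ∈ s, g i x) := by
  classical
  induction s using Finset.induction_on with
  | empty => simpa using IsQ.zero
  | insert i s hi ih =>
    have := (hg i (Finset.mem_insert_self i s)).add' (ih fun j hj => hg j (Finset.mem_insert_of_mem hj))
    refine cast (congrArg IsQ (funext fun x => ?_)) this
    rw [Finset.sum_insert hi]

/-- composition with a linear map on the target -/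
lemma IsQ.comp_lin {F' : Type*} [NormedAddCommGroup F'] [NormedSpace ℝ F'] {g : E → F}
    (hg : IsQ g) (A : F →ₗ[ℝ] F') : IsQ (fun x => A (g x)) where
  add x x' y := by
    have := congrArg A (hg.add x x' y)
    simpa only [map_add] using this
  smul c x y := by rw [hg.smul]; simp only [map_add, map_sub, map_smul]
  hom c x := by rw [hg.hom]; simp only [map_smul]

lemma IsQ.map0 {g : E → F} (hg : IsQ g) : g 0 = 0 := by
  have := hg.hom 0 0; simpa using this

lemma IsQ.neg {g : E → F} (hg : IsQ g) (x : E) : g (-x) = g x := by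
  have := hg.hom (-1) x; simpa using this

/-- parallelogram -/
lemma IsQ.par {g : E → F} (hg : IsQ g) (x y : E) :
    g (x + y) + g (x - y) = (2 : ℝ) • g x + (2 : ℝ) • g y := by
  have h := hg.smul (-1) y x
  have e1 : (-1 : ℝ) • y + x = x - y := by simp [sub_eq_neg_add]
  have e2 : g ((-1 : ℝ) • y) = g y := by rw [hg.hom]; simp
  rw [e1, e2, add_comm y x] at h
  rw [h]; module

/-- limits of quadratic maps -/
lemma IsQ.lim {ι : Type*} {l : Filter ι} [l.NeBot] {g : ι → E → F} {f : E → F}
    (hg : ∀ i, IsQ (g i)) (h : ∀ x, Tendsto (fun i => g i x) l (𝓝 (f x))) : IsQ f where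
  add x x' y := by
    have a : Tendsto (fun i => g i (x + x' + y) + g i x + g i x' + g i y) l
        (𝓝 (f (x + x' + y) + f x + f x' + f y)) := (((h _).add (h _)).add (h _)).add (h _)
    have b : Tendsto (fun i => g i (x + x') + g i (x' + y) + g i (x + y)) l
        (𝓝 (f (x + x') + f (x' + y) + f (x + y))) := ((h _).add (h _)).add (h _)
    refine tendsto_nhds_unique a (b.congr fun i => ((hg i).add x x' y).symm)
  smul c x y := by
    have b : Tendsto (fun i => g i (c • x) + g i y + c • (g i (x + y) - g i x - g i y)) l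
        (𝓝 (f (c • x) + f y + c • (f (x + y) - f x - f y))) :=
      ((h _).add (h _)).add ((((h _).sub (h _)).sub (h _)).const_smul c)
    exact tendsto_nhds_unique (h _) (b.congr fun i => ((hg i).smul c x y).symm)
  hom c x := tendsto_nhds_unique (h _) (((h x).const_smul (c ^ 2)).congr fun i => ((hg i).hom c x).symm)

/-- bounded quadratic maps have a quadratic cluster point -/
lemma IsQ.cluster [FiniteDimensional ℝ F] {g : ℕ → E → F} {M : ℝ} (hg : ∀ i, IsQ (g i))
    (hM : ∀ i x, ‖g i x‖ ≤ M * ‖x‖ ^ 2) : ∃ (l : Filter ℕ) (f : E → F), l.NeBot ∧ l ≤ atTop ∧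
      IsQ f ∧ (∀ x, ‖f x‖ ≤ M * ‖x‖ ^ 2) ∧ ∀ x, Tendsto (fun i => g i x) l (𝓝 (f x)) := by
  have : ProperSpace F := FiniteDimensional.proper_real F
  let U : Ultrafilter ℕ := Ultrafilter.of (atTop : Filter ℕ)
  have hU : (U : Filter ℕ) ≤ atTop := Ultrafilter.of_le _
  have key : ∀ x, ∃ a, Tendsto (fun i => g i x) (U : Filter ℕ) (𝓝 a) := by
    intro x
    have hc : IsCompact (Metric.closedBall (0 : F) (M * ‖x‖ ^ 2)) := isCompact_closedBall _ _
    have hm : (U.map fun i => g i x : Filter F) ≤ 𝓟 (Metric.closedBall (0 : F) (M * ‖x‖ ^ 2)) := by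
      rw [le_principal_iff]
      refine Filter.mem_map.2 (Filter.univ_mem' fun i => ?_)
      simpa using hM i x
    obtain ⟨a, _, ha⟩ := isCompact_iff_ultrafilter_le_nhds.1 hc (U.map fun i => g i x) hm
    exact ⟨a, ha⟩
  choose f hf using key
  refine ⟨U, f, U.neBot, hU, IsQ.lim hg hf, fun x => ?_, hf⟩
  exact le_of_tendsto ((hf x).norm) (Filter.Eventually.of_forall fun i => hM i x)

/-- bound for differences -/
lemma IsQ.diff_le {g : E → F} (hg : IsQ g) {M : ℝ} (hM : ∀ x, ‖g x‖ ≤ M * ‖x‖ ^ 2) (u x : E) :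
    ‖g u - g x‖ ≤ M * ‖u - x‖ ^ 2 + 2 * M * ‖u - x‖ * ‖x‖ := by
  -- polar form
  have hM0 : 0 ≤ M ∨ ∀ z : E, z = 0 := by
    by_contra hcon
    push Not at hcon
    obtain ⟨h1, z, hz⟩ := hcon
    have := hM z
    have h2 : 0 < ‖z‖ ^ 2 := by positivity
    nlinarith [norm_nonneg (g z)]
  rcases hM0 with hM0 | hall
  swap
  · rw [hall u, hall x]; simp
  have pol : ∀ a b : E, g (a + b) - g a - g b = (1 / 2 : ℝ) • (g (a + b) - g (a - b)) := by
    intro a b
    have := hg.par a b
    have h2 : g (a - b) = (2 : ℝ) • g a + (2 : ℝ) • g b - g (a + b) := by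
      rw [← this]; abel
    rw [h2]; module
  have polb1 : ∀ a b : E, ‖a‖ = 1 → ‖b‖ = 1 → ‖g (a + b) - g a - g b‖ ≤ 2 * M := by
    intro a b ha hb
    rw [pol, norm_smul]
    have hpl := parallelogram_law_with_norm ℝ a b
    rw [ha, hb] at hpl
    calc ‖(1 / 2 : ℝ)‖ * ‖g (a + b) - g (a - b)‖ ≤ (1 / 2) * (M * ‖a + b‖ ^ 2 + M * ‖a - b‖ ^ 2) := by
          rw [Real.norm_of_nonneg (by norm_num : (0:ℝ) ≤ 1/2)]
          gcongr
          exact (norm_sub_le _ _).trans (add_le_add (hM _) (hM _))
      _ = M / 2 * (‖a + b‖ ^ 2 + ‖a - b‖ ^ 2) := by ring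
      _ = 2 * M := by rw [hpl]; ring
  have hsc : ∀ (s t : ℝ) (a b : E), g (s • a + t • b) - g (s • a) - g (t • b) =
      (s * t) • (g (a + b) - g a - g b) := by
    intro s t a b
    have h1 := hg.smul s a (t • b)
    have h2 := hg.smul t b a
    rw [h1, add_comm a (t • b), h2, add_comm b a]
    rw [hg.hom t b, hg.hom s a]; module
  have polb : ∀ a b : E, ‖g (a + b) - g a - g b‖ ≤ 2 * M * ‖a‖ * ‖b‖ := by
    intro a b
    rcases eq_or_ne a 0 with rfl | ha
    · simp [hg.map0]
    rcases eq_or_ne b 0 with rfl | hb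
    · simp [hg.map0]
    have e := hsc ‖a‖ ‖b‖ (‖a‖⁻¹ • a) (‖b‖⁻¹ • b)
    have ha' : ‖a‖ ≠ 0 := norm_ne_zero_iff.2 ha
    have hb' : ‖b‖ ≠ 0 := norm_ne_zero_iff.2 hb
    rw [smul_inv_smul₀ ha', smul_inv_smul₀ hb'] at e
    rw [e, norm_smul]
    have := polb1 (‖a‖⁻¹ • a) (‖b‖⁻¹ • b) (by rw [norm_smul, norm_inv, norm_norm, inv_mul_cancel₀ ha'])
      (by rw [norm_smul, norm_inv, norm_norm, inv_mul_cancel₀ hb'])
    calc ‖‖a‖ * ‖b‖‖ * _ ≤ (‖a‖ * ‖b‖) * (2 * M) := by
          rw [Real.norm_of_nonneg (by positivity)]; gcongr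
      _ = 2 * M * ‖a‖ * ‖b‖ := by ring
  have h1 : g u - g x = g (u - x) + (g ((u - x) + x) - g (u - x) - g x) := by
    rw [sub_add_cancel]; abel
  rw [h1]
  refine (norm_add_le _ _).trans (add_le_add (hM _) (polb _ _))

end Vale.Agent.P207.H12.XB
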