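import Vale.Agent.P207.H12.XB1

/-!
P207, line N4, step 8.  Part XB2: the discrete Gronwall lemma, the one step lemma, sewing.
-/

set_option autoImplicit false

namespace Vale.Agent.P207.H12.XB

open Real Filter Topology

variable {E : Type*} [NormedAddCommGroup E] [InnerProductSpace ℝ E]
variable {F : Type*} [NormedAddCommGroup F] [NormedSpace ℝ F]

lemma IsQ.bound_of_ball {g : E → F} (hg : IsQ g) {r B : ℝ} (hr : 0 < r)
    (h : ∀ x, ‖x‖ ≤ r → ‖g x‖ ≤ B) (x : E) : ‖g x‖ ≤ B / r ^ 2 * ‖x‖ ^ 2 := by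
  rcases eq_or_ne x 0 with rfl | hx
  · simp [hg.map0]
  have hx' : 0 < ‖x‖ := norm_pos_iff.2 hx
  have h1 := h ((r / ‖x‖) • x) (by
    rw [norm_smul, Real.norm_of_nonneg (by positivity), div_mul_cancel₀ _ hx'.ne'])
  rw [hg.hom, norm_smul, Real.norm_of_nonneg (by positivity), div_pow] at h1
  have h2 : 0 < r ^ 2 := by positivity
  have h3 : 0 < ‖x‖ ^ 2 := by positivity
  calc ‖g x‖ = (r ^ 2 / ‖x‖ ^ 2 * ‖g x‖) * (‖x‖ ^ 2 / r ^ 2) := by field_simp
    _ ≤ B * (‖x‖ ^ 2 / r ^ 2) := by gcongr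
    _ = B / r ^ 2 * ‖x‖ ^ 2 := by ring

/-- discrete Gronwall for compositions of maps `x ↦ x + c_i x + O(ε)` -/
lemma disc {n : ℕ} {x : ℕ → E} {c : ℕ → E → E} {τ ε : ℝ} (hτ : 0 ≤ τ) (hε : 0 ≤ ε)
    (hc : ∀ i < n, IsQ (c i)) (hcb : ∀ i < n, ∀ u, ‖c i u‖ ≤ τ * ‖u‖ ^ 2)
    (hx : ∀ i ≤ n, ‖x i‖ ≤ 1 / 2) (hstep : ∀ i < n, ‖x (i + 1) - x i - c i (x i)‖ ≤ ε)
    (hn : n * τ ≤ 1) :
    (∀ i ≤ n, ‖x i - x 0‖ ≤ 4 * (n * τ) * (‖x 0‖ + n * ε) ^ 2 + n * ε) ∧
    ‖x n - x 0 - ∑ i ∈ Finset.range n, c i (x 0)‖ ≤ n * ε + n * τ *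
      ((4 * (n * τ) * (‖x 0‖ + n * ε) ^ 2 + n * ε) ^ 2 +
        2 * (4 * (n * τ) * (‖x 0‖ + n * ε) ^ 2 + n * ε) * ‖x 0‖) := by
  -- growth
  have h1 : ∀ i ≤ n, ‖x i‖ ≤ (1 + τ / 2) ^ i * (‖x 0‖ + i * ε) := by
    intro i
    induction i with
    | zero => intro _; simp
    | succ i ih =>
      intro hi
      have hi' : i < n := hi
      have ih' := ih hi'.le
      have hxi := hx i hi'.le
      have e : x (i + 1) = x i + c i (x i) + (x (i + 1) - x i - c i (x i)) := by abel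
      have b1 : ‖c i (x i)‖ ≤ τ / 2 * ‖x i‖ := by
        refine (hcb i hi' (x i)).trans ?_
        nlinarith [mul_nonneg hτ (norm_nonneg (x i)), norm_nonneg (x i)]
      have b2 : ‖x (i + 1)‖ ≤ (1 + τ / 2) * ‖x i‖ + ε := by
        rw [e]
        refine (norm_add_le _ _).trans ?_
        refine (add_le_add (norm_add_le _ _) (hstep i hi')).trans ?_
        linarith
      have hp : 1 ≤ (1 + τ / 2) ^ (i + 1) := one_le_pow₀ (by linarith)
      calc ‖x (i + 1)‖ ≤ (1 + τ / 2) * ‖x i‖ + ε := b2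
        _ ≤ (1 + τ / 2) * ((1 + τ / 2) ^ i * (‖x 0‖ + i * ε)) + (1 + τ / 2) ^ (i + 1) * ε := by
            gcongr
            nlinarith
        _ = (1 + τ / 2) ^ (i + 1) * (‖x 0‖ + ((i + 1 : ℕ) : ℝ) * ε) := by
            push_cast; ring
  have hR0 : 0 ≤ ‖x 0‖ + n * ε := by positivity
  have h2 : ∀ i ≤ n, ‖x i‖ ≤ 2 * (‖x 0‖ + n * ε) := by
    intro i hi
    have hpow : (1 + τ / 2) ^ i ≤ 2 := by
      have a1 : (1 + τ / 2) ^ i ≤ (1 + τ / 2) ^ n := pow_le_pow_right₀ (by linarith) hi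
      have a2 : 1 + τ / 2 ≤ Real.exp (τ / 2) := by
        have := Real.add_one_le_exp (τ / 2); linarith
      have a3 : (1 + τ / 2) ^ n ≤ Real.exp (τ / 2) ^ n := by
        gcongr
      have a4 : Real.exp (τ / 2) ^ n = Real.exp (n * τ / 2) := by
        rw [← Real.exp_nat_mul]; congr 1; ring
      have a5 : Real.exp (n * τ / 2) ≤ Real.exp (1 / 2) := by
        apply Real.exp_le_exp.2; linarith
      have a6 : Real.exp (1 / 2) ≤ 2 := by
        have b1 : Real.exp 1 < 2.7182818286 := Real.exp_one_lt_d9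
        have b2 : Real.exp (1 / 2) ^ 2 = Real.exp 1 := by
          rw [← Real.exp_nat_mul]; norm_num
        nlinarith [Real.exp_pos (1 / 2 : ℝ)]
      calc (1 + τ / 2) ^ i ≤ Real.exp (n * τ / 2) := a1.trans (a3.trans a4.le)
        _ ≤ 2 := a5.trans a6
    have hin : (i : ℝ) ≤ n := by exact_mod_cast hi
    calc ‖x i‖ ≤ (1 + τ / 2) ^ i * (‖x 0‖ + i * ε) := h1 i hi
      _ ≤ 2 * (‖x 0‖ + n * ε) := by gcongr
  have hstep2 : ∀ i < n, ‖x (i + 1) - x i‖ ≤ 4 * τ * (‖x 0‖ + n * ε) ^ 2 + ε := by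
    intro i hi
    have e : x (i + 1) - x i = c i (x i) + (x (i + 1) - x i - c i (x i)) := by abel
    rw [e]
    refine (norm_add_le _ _).trans (add_le_add ?_ (hstep i hi))
    refine (hcb i hi (x i)).trans ?_
    have := h2 i hi.le
    calc τ * ‖x i‖ ^ 2 ≤ τ * (2 * (‖x 0‖ + n * ε)) ^ 2 := by gcongr
      _ = 4 * τ * (‖x 0‖ + n * ε) ^ 2 := by ring
  have h3' : ∀ i ≤ n, ‖x i - x 0‖ ≤ i * (4 * τ * (‖x 0‖ + n * ε) ^ 2 + ε) := by
    intro i
    induction i with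
    | zero => intro _; simp
    | succ i ih =>
      intro hi
      have hi' : i < n := hi
      have e : x (i + 1) - x 0 = (x i - x 0) + (x (i + 1) - x i) := by abel
      rw [e]
      refine (norm_add_le _ _).trans ((add_le_add (ih hi'.le) (hstep2 i hi')).trans ?_)
      push_cast; linarith
  have h3 : ∀ i ≤ n, ‖x i - x 0‖ ≤ 4 * (n * τ) * (‖x 0‖ + n * ε) ^ 2 + n * ε := by
    intro i hi
    have hin : (i : ℝ) ≤ n := by exact_mod_cast hi
    calc ‖x i - x 0‖ ≤ i * (4 * τ * (‖x 0‖ + n * ε) ^ 2 + ε) := h3' i hi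
      _ ≤ n * (4 * τ * (‖x 0‖ + n * ε) ^ 2 + ε) := by
          gcongr
      _ = _ := by ring
  refine ⟨h3, ?_⟩
  set D := 4 * (n * τ) * (‖x 0‖ + n * ε) ^ 2 + n * ε with hD
  have hD0 : 0 ≤ D := by positivity
  have h4 : ∀ i ≤ n, ‖x i - x 0 - ∑ l ∈ Finset.range i, c l (x 0)‖ ≤
      i * (ε + τ * (D ^ 2 + 2 * D * ‖x 0‖)) := by
    intro i
    induction i with
    | zero => intro _; simp
    | succ i ih =>
      intro hi
      have hi' : i < n := hi
      have e : x (i + 1) - x 0 - ∑ l ∈ Finset.range (i + 1), c l (x 0) =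
          (x i - x 0 - ∑ l ∈ Finset.range i, c l (x 0)) +
            ((x (i + 1) - x i - c i (x i)) + (c i (x i) - c i (x 0))) := by
        rw [Finset.sum_range_succ]; abel
      rw [e]
      refine (norm_add_le _ _).trans ?_
      have b := (hc i hi').diff_le (hcb i hi') (x i) (x 0)
      have b' : ‖c i (x i) - c i (x 0)‖ ≤ τ * (D ^ 2 + 2 * D * ‖x 0‖) := by
        refine b.trans ?_
        have := h3 i hi'.le
        calc τ * ‖x i - x 0‖ ^ 2 + 2 * τ * ‖x i - x 0‖ * ‖x 0‖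
            ≤ τ * D ^ 2 + 2 * τ * D * ‖x 0‖ := by gcongr
          _ = τ * (D ^ 2 + 2 * D * ‖x 0‖) := by ring
      refine (add_le_add (ih hi'.le) ((norm_add_le _ _).trans (add_le_add (hstep i hi') b'))).trans ?_
      push_cast; linarith
  refine (h4 n le_rfl).trans (le_of_eq ?_)
  ring

end Vale.Agent.P207.H12.XB
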