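import Vale.Agent.P207.H12.XB2

/-!
P207, line N4, step 8.  Part XB3: the interface (`Base`, `Half`) and the one step lemma.
-/

set_option autoImplicit false

namespace Vale.Agent.P207.H12.XB

open Real Filter Topology

variable {E : Type*} [NormedAddCommGroup E] [InnerProductSpace ℝ E] {V : Type*}

/-- the family of charts along one leaf: `w z` the index of the point with coordinate `z`,
`H z z'` the transition of the transverse coordinate. -/
structure Base (C : V → E → E → ℝ) (K ρ : ℝ) (w : E → V) (H : E → E → E → E) : Prop where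
  lip : ∀ z z' x, ‖z‖ ≤ ρ → ‖z'‖ ≤ ρ → ‖x‖ ≤ 1 / 2 → ‖H z z' x - x‖ ≤ K * ‖z' - z‖
  coc : ∀ z z' z'' x, ‖z‖ ≤ ρ → ‖z'‖ ≤ ρ → ‖z''‖ ≤ ρ → ‖x‖ ≤ 1 / 2 → ‖H z z' x‖ ≤ 1 / 2 →
    H z' z'' (H z z' x) = H z z'' x
  law : ∀ z z' k x, ‖z‖ ≤ ρ → ‖z'‖ ≤ ρ → ‖z' + k‖ ≤ ρ → ‖x‖ ≤ 1 / 2 →
    C (w z) (z' - z + k) x - C (w z) (z' - z) x = C (w z') k (H z z' x)

/-- one half of the input of step 8 (the other half is the same for the flipped function) -/
structure Half (C : V → E → E → ℝ) (K s κ ρ : ℝ) : Prop where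
  hK : 1 ≤ K
  hs : 1 < s
  hs2 : s ≤ 2
  hκ : 0 < κ
  hsκ : 2 + κ ≤ s + 1
  hρ : 0 < ρ
  hρ1 : ρ ≤ 1
  o1 : ∀ v z x, ‖z‖ ≤ 1 → ‖x‖ ≤ 1 → |C v z x - inner ℝ z x| ≤ K * ‖z‖ ^ s
  o2 : ∀ v z, ‖z‖ ≤ 1 → ∃ q : E → ℝ, IsQ q ∧ ∀ x, ‖x‖ ≤ 1 →
    |C v z x - inner ℝ z x - q x| ≤ K * ‖z‖ ^ (2 + κ)
  base : ∀ v, ∃ (w : E → V) (H : E → E → E → E), w 0 = v ∧ Base C K ρ w H

lemma Base.self {C : V → E → E → ℝ} {K ρ : ℝ} {w : E → V} {H : E → E → E → E}
    (hb : Base C K ρ w H) {z x : E} (hz : ‖z‖ ≤ ρ) (hx : ‖x‖ ≤ 1 / 2) : H z z x = x := by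
  have := hb.lip z z x hz hz hx
  rw [sub_self, norm_zero, mul_zero] at this
  have h2 := norm_le_zero_iff.1 this
  exact sub_eq_zero.1 h2

/-- the one step lemma -/
lemma step [FiniteDimensional ℝ E] {C : V → E → E → ℝ} {K s κ ρ : ℝ} (h : Half C K s κ ρ) :
    ∃ K1 ρ1 : ℝ, 0 ≤ K1 ∧ 0 < ρ1 ∧ ρ1 ≤ ρ ∧ ρ1 ≤ 1 ∧
      ∀ (w : E → V) (H : E → E → E → E), Base C K ρ w H → ∀ z z' : E, ‖z‖ ≤ ρ1 → ‖z'‖ ≤ ρ1 →
        ∃ c : E → E, IsQ c ∧ (∀ x, ‖c x‖ ≤ K1 * ‖z' - z‖ * ‖x‖ ^ 2) ∧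
          ∀ x, ‖x‖ ≤ 1 / 2 → ‖H z z' x - x - c x‖ ≤ K1 * ‖z' - z‖ ^ (1 + κ) := by
  have hK0 : 0 < K := lt_of_lt_of_le one_pos h.hK
  set n : ℝ := (Module.finrank ℝ E : ℝ) with hn
  have hn0 : 0 ≤ n := by positivity
  set C1 : ℝ := K * 2 ^ (2 + κ) + 2 * K + 4 * K ^ 2 with hC1
  have hC10 : 0 ≤ C1 := by positivity
  set ρ1 : ℝ := min (ρ / 4) (1 / (8 * K)) with hρ1
  have hρ10 : 0 < ρ1 := lt_min (by have := h.hρ; linarith) (by positivity)
  have hρ1ρ : ρ1 ≤ ρ / 4 := min_le_left _ _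
  have hρ1K : ρ1 ≤ 1 / (8 * K) := min_le_right _ _
  refine ⟨4 * (K + n * C1), ρ1, by positivity, hρ10, by linarith [h.hρ], by linarith [h.hρ1, h.hρ], ?_⟩
  intro w H hb z z' hz hz'
  set t : ℝ := ‖z' - z‖ with ht
  have ht0 : 0 ≤ t := norm_nonneg _
  have ht2 : t ≤ 2 * ρ1 := (norm_sub_le _ _).trans (by linarith)
  have htρ : t ≤ ρ / 2 := by linarith
  have hKt : K * t ≤ 1 / 4 := by
    have : t ≤ 2 * (1 / (8 * K)) := by linarith
    calc K * t ≤ K * (2 * (1 / (8 * K))) := by gcongr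
      _ = 1 / 4 := by field_simp; norm_num
  have hzρ : ‖z‖ ≤ ρ := by linarith [h.hρ]
  have hzρ' : ‖z'‖ ≤ ρ := by linarith [h.hρ]
  rcases eq_or_lt_of_le ht0 with h0 | htpos
  · -- t = 0
    refine ⟨fun _ => 0, IsQ.zero, fun x => by simp; positivity, fun x hx => ?_⟩
    have hzz : z' = z := by
      have : ‖z' - z‖ = 0 := by rw [← ht]; exact h0.symm
      exact sub_eq_zero.1 (norm_eq_zero.1 this)
    rw [hzz, hb.self hzρ hx]
    simp only [sub_self, sub_zero, norm_zero]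
    positivity
  have ht1 : t ≤ 1 / 2 := by linarith [h.hρ1]
  -- powers
  have hpow : t ^ (s + 1) ≤ t ^ (2 + κ) :=
    Real.rpow_le_rpow_of_exponent_ge htpos (by linarith) h.hsκ
  have hpow2 : t ^ (2 + κ) ≤ t ^ s :=
    Real.rpow_le_rpow_of_exponent_ge htpos (by linarith) (by linarith [h.hs2, h.hκ])
  let b := stdOrthonormalBasis ℝ E
  let ι := Fin (Module.finrank ℝ E)
  have hbn : ∀ i, ‖b i‖ = 1 := fun i => b.norm_eq_one i
  have hkn : ∀ i, ‖t • b i‖ = t := fun i => by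
    rw [norm_smul, hbn, mul_one, Real.norm_of_nonneg ht0]
  -- the quadratic forms
  obtain ⟨q0, hq0, hq0'⟩ := h.o2 (w z) (z' - z) (by rw [← ht]; linarith)
  have hA : ∀ i, ∃ q : E → ℝ, IsQ q ∧ ∀ x, ‖x‖ ≤ 1 →
      |C (w z) (z' - z + t • b i) x - inner ℝ (z' - z + t • b i) x - q x| ≤
        K * (2 * t) ^ (2 + κ) := by
    intro i
    have hnle : ‖z' - z + t • b i‖ ≤ 2 * t := by
      refine (norm_add_le _ _).trans ?_
      rw [hkn, ← ht]; linarith
    obtain ⟨q, hq, hq'⟩ := h.o2 (w z) (z' - z + t • b i) (by linarith)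
    refine ⟨q, hq, fun x hx => (hq' x hx).trans ?_⟩
    have h2κ : 0 ≤ 2 + κ := by linarith [h.hκ]
    gcongr
  have hB : ∀ i, ∃ q : E → ℝ, IsQ q ∧ ∀ x, ‖x‖ ≤ 1 →
      |C (w z') (t • b i) x - inner ℝ (t • b i) x - q x| ≤ K * t ^ (2 + κ) := by
    intro i
    obtain ⟨q, hq, hq'⟩ := h.o2 (w z') (t • b i) (by rw [hkn]; linarith)
    refine ⟨q, hq, fun x hx => (hq' x hx).trans ?_⟩
    rw [hkn]
  choose qA hqA hqA' using hA
  choose qB hqB hqB' using hB
  -- bound of qB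
  have hqBb : ∀ i x, ‖qB i x‖ ≤ 2 * K * t ^ s * ‖x‖ ^ 2 := by
    intro i x
    have := (hqB i).bound_of_ball (r := 1) (B := 2 * K * t ^ s) one_pos (fun x hx => ?_) x
    · simpa using this
    have a1 := hqB' i x hx
    have a2 := h.o1 (w z') (t • b i) x (by rw [hkn]; linarith) hx
    rw [hkn] at a2
    have e : qB i x = (C (w z') (t • b i) x - inner ℝ (t • b i) x) -
      (C (w z') (t • b i) x - inner ℝ (t • b i) x - qB i x) := by ring
    rw [Real.norm_eq_abs, e]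
    refine (abs_sub _ _).trans ?_
    have : K * t ^ (2 + κ) ≤ K * t ^ s := by gcongr
    linarith
  -- the main estimate
  have key : ∀ i x, ‖x‖ ≤ 1 / 2 →
      |t * inner ℝ (b i) (H z z' x - x) - (qA i x - q0 x - qB i x)| ≤ C1 * t ^ (2 + κ) := by
    intro i x hx
    have hx1 : ‖x‖ ≤ 1 := by linarith
    have hlip := hb.lip z z' x hzρ hzρ' hx
    rw [← ht] at hlip
    have hH1 : ‖H z z' x‖ ≤ 1 := by
      have : H z z' x = x + (H z z' x - x) := by abel
      rw [this]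
      refine (norm_add_le _ _).trans ?_
      linarith
    have hlaw := hb.law z z' (t • b i) x hzρ hzρ' (by
      refine (norm_add_le _ _).trans ?_
      rw [hkn]; linarith [h.hρ]) hx
    have a1 := hqA' i x hx1
    have a2 := hq0' x hx1
    rw [← ht] at a2
    have a3 := hqB' i (H z z' x) hH1
    have a4 := (hqB i).diff_le (hqBb i) (H z z' x) x
    have a4' : |qB i (H z z' x) - qB i x| ≤ 4 * K ^ 2 * t ^ (2 + κ) := by
      rw [Real.norm_eq_abs] at a4
      refine a4.trans ?_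
      calc 2 * K * t ^ s * ‖H z z' x - x‖ ^ 2 + 2 * (2 * K * t ^ s) * ‖H z z' x - x‖ * ‖x‖
          ≤ 2 * K * t ^ s * (K * t) ^ 2 + 2 * (2 * K * t ^ s) * (K * t) * (1 / 2) := by gcongr
        _ = 2 * K ^ 2 * (t ^ s * t) * (K * t + 1) := by ring
        _ ≤ 2 * K ^ 2 * (t ^ s * t) * 2 := by gcongr; linarith
        _ = 4 * K ^ 2 * t ^ (s + 1) := by rw [Real.rpow_add_one htpos.ne']; ring
        _ ≤ 4 * K ^ 2 * t ^ (2 + κ) := by gcongr
    have e1 : inner ℝ (z' - z + t • b i) x = inner ℝ (z' - z) x + t * inner ℝ (b i) x := by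
      rw [inner_add_left, real_inner_smul_left]
    have e2 : inner ℝ (t • b i) (H z z' x) = t * inner ℝ (b i) (H z z' x) := by
      rw [real_inner_smul_left]
    rw [e1] at a1
    rw [e2] at a3
    rw [inner_sub_right]
    have h2t : (2 * t) ^ (2 + κ) = 2 ^ (2 + κ) * t ^ (2 + κ) :=
      Real.mul_rpow (by norm_num) ht0
    rw [h2t] at a1
    have : t * (inner ℝ (b i) (H z z' x) - inner ℝ (b i) x) - (qA i x - q0 x - qB i x) =
        (C (w z) (z' - z + t • b i) x - (inner ℝ (z' - z) x + t * inner ℝ (b i) x) - qA i x)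
        - (C (w z) (z' - z) x - inner ℝ (z' - z) x - q0 x)
        - (C (w z') (t • b i) (H z z' x) - t * inner ℝ (b i) (H z z' x) - qB i (H z z' x))
        - (qB i (H z z' x) - qB i x) := by
      rw [← hlaw]; ring
    rw [this]
    have s1 := abs_sub
      ((C (w z) (z' - z + t • b i) x - (inner ℝ (z' - z) x + t * inner ℝ (b i) x) - qA i x)
        - (C (w z) (z' - z) x - inner ℝ (z' - z) x - q0 x)
        - (C (w z') (t • b i) (H z z' x) - t * inner ℝ (b i) (H z z' x) - qB i (H z z' x)))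
      (qB i (H z z' x) - qB i x)
    have s2 := abs_sub
      ((C (w z) (z' - z + t • b i) x - (inner ℝ (z' - z) x + t * inner ℝ (b i) x) - qA i x)
        - (C (w z) (z' - z) x - inner ℝ (z' - z) x - q0 x))
      (C (w z') (t • b i) (H z z' x) - t * inner ℝ (b i) (H z z' x) - qB i (H z z' x))
    have s3 := abs_sub
      (C (w z) (z' - z + t • b i) x - (inner ℝ (z' - z) x + t * inner ℝ (b i) x) - qA i x)
      (C (w z) (z' - z) x - inner ℝ (z' - z) x - q0 x)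
    have : C1 * t ^ (2 + κ) = K * (2 ^ (2 + κ) * t ^ (2 + κ)) + K * t ^ (2 + κ) + K * t ^ (2 + κ) +
        4 * K ^ 2 * t ^ (2 + κ) := by rw [hC1]; ring
    rw [this]
    linarith
  -- the quadratic map
  let c : E → E := fun x => ∑ i, (t⁻¹ * (qA i x - q0 x - qB i x)) • b i
  have hcQ : IsQ c := by
    refine IsQ.sum _ fun i _ => ?_
    have h1 : IsQ (fun x => t⁻¹ • (qA i x - q0 x - qB i x)) :=
      (((hqA i).sub' hq0).sub' (hqB i)).const_smul t⁻¹
    exact h1.comp_lin (LinearMap.toSpanSingleton ℝ E (b i))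
  have hmain : ∀ x, ‖x‖ ≤ 1 / 2 → ‖H z z' x - x - c x‖ ≤ n * C1 * t ^ (1 + κ) := by
    intro x hx
    have e : H z z' x - x = ∑ i, (inner ℝ (b i) (H z z' x - x)) • b i :=
      (b.sum_repr' (H z z' x - x)).symm
    have e2 : H z z' x - x - c x =
        ∑ i, (inner ℝ (b i) (H z z' x - x) - t⁻¹ * (qA i x - q0 x - qB i x)) • b i := by
      conv_lhs => rw [e]
      rw [← Finset.sum_sub_distrib]
      refine Finset.sum_congr rfl fun i _ => ?_
      rw [sub_smul]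
    rw [e2]
    refine (norm_sum_le _ _).trans ?_
    have : ∀ i ∈ (Finset.univ : Finset (Fin (Module.finrank ℝ E))),
        ‖(inner ℝ (b i) (H z z' x - x) - t⁻¹ * (qA i x - q0 x - qB i x)) • b i‖ ≤
          C1 * t ^ (1 + κ) := by
      intro i _
      rw [norm_smul, hbn, mul_one, Real.norm_eq_abs]
      have k := key i x hx
      have e3 : inner ℝ (b i) (H z z' x - x) - t⁻¹ * (qA i x - q0 x - qB i x) =
          t⁻¹ * (t * inner ℝ (b i) (H z z' x - x) - (qA i x - q0 x - qB i x)) := by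
        field_simp
      rw [e3, abs_mul, abs_of_pos (inv_pos.2 htpos)]
      calc t⁻¹ * |t * inner ℝ (b i) (H z z' x - x) - (qA i x - q0 x - qB i x)|
          ≤ t⁻¹ * (C1 * t ^ (2 + κ)) := by gcongr
        _ = C1 * t ^ (1 + κ) := by
          have : (2 + κ : ℝ) = (1 + κ) + 1 := by ring
          rw [this, Real.rpow_add_one htpos.ne']; field_simp
    refine (Finset.sum_le_card_nsmul _ _ _ this).trans (le_of_eq ?_)
    simp [hn]; ring
  refine ⟨c, hcQ, ?_, ?_⟩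
  · intro x
    have hb2 : ∀ x, ‖x‖ ≤ 1 / 2 → ‖c x‖ ≤ (K + n * C1) * t := by
      intro x hx
      have m := hmain x hx
      have l := hb.lip z z' x hzρ hzρ' hx
      rw [← ht] at l
      have p : t ^ (1 + κ) ≤ t := by
        conv_rhs => rw [← Real.rpow_one t]
        exact Real.rpow_le_rpow_of_exponent_ge htpos (by linarith) (by linarith [h.hκ])
      have e : c x = (H z z' x - x) - (H z z' x - x - c x) := by abel
      rw [e]
      refine (norm_sub_le _ _).trans ?_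
      have : n * C1 * t ^ (1 + κ) ≤ n * C1 * t := by gcongr
      linarith
    refine (hcQ.bound_of_ball (r := 1 / 2) (by norm_num) hb2 x).trans (le_of_eq ?_)
    ring
  · intro x hx
    refine (hmain x hx).trans ?_
    have : 0 ≤ t ^ (1 + κ) := by positivity
    nlinarith [mul_nonneg hn0 hC10, mul_nonneg hK0.le this, mul_nonneg (mul_nonneg hn0 hC10) this]

end Vale.Agent.P207.H12.XB
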