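import Vale.Agent.P207.H12.XB3

/-!
P207, line N4, step 8.  Part XB4: sewing (transitions are `x + g x + O(t² |x|³)` with `g` quadratic)
and the expansion of `C`.
-/

set_option autoImplicit false

namespace Vale.Agent.P207.H12.XB

open Real Filter Topology

variable {E : Type*} [NormedAddCommGroup E] [InnerProductSpace ℝ E] {V : Type*}

lemma tendsto_aux {t p : ℝ} (ht : 0 ≤ t) (hp : 1 < p) :
    Tendsto (fun n : ℕ => ((n + 1 : ℕ) : ℝ) * (t / ((n + 1 : ℕ) : ℝ)) ^ p) atTop (𝓝 0) := by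
  have h1 : ∀ n : ℕ, ((n + 1 : ℕ) : ℝ) * (t / ((n + 1 : ℕ) : ℝ)) ^ p =
      t ^ p * (((n + 1 : ℕ) : ℝ)) ^ (-(p - 1)) := by
    intro n
    have hn : (0 : ℝ) < ((n + 1 : ℕ) : ℝ) := by positivity
    rw [Real.div_rpow ht hn.le, Real.rpow_neg hn.le, Real.rpow_sub_one hn.ne']
    field_simp
  simp_rw [h1]
  have h2 : Tendsto (fun n : ℕ => (((n + 1 : ℕ) : ℝ)) ^ (-(p - 1))) atTop (𝓝 0) :=
    (tendsto_rpow_neg_atTop (by linarith)).comp
      (tendsto_natCast_atTop_atTop.comp (tendsto_add_atTop_nat 1))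
  simpa using h2.const_mul (t ^ p)

/-- sewing -/
lemma sew [FiniteDimensional ℝ E] {C : V → E → E → ℝ} {K s κ ρ : ℝ} (h : Half C K s κ ρ) :
    ∃ K2 ρ2 : ℝ, 0 ≤ K2 ∧ 0 < ρ2 ∧ ρ2 ≤ ρ ∧ ρ2 ≤ 1 ∧ K * ρ2 ≤ 1 / 8 ∧
      ∀ (w : E → V) (H : E → E → E → E), Base C K ρ w H → ∀ z z' : E, ‖z‖ ≤ ρ2 → ‖z'‖ ≤ ρ2 →
        ∃ g : E → E, IsQ g ∧ (∀ x, ‖g x‖ ≤ K2 * ‖z' - z‖ * ‖x‖ ^ 2) ∧
          ∀ x, ‖x‖ ≤ 1 / 4 → ‖H z z' x - x - g x‖ ≤ K2 * ‖z' - z‖ ^ 2 * ‖x‖ ^ 3 := by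
  have hK0 : 0 < K := lt_of_lt_of_le one_pos h.hK
  obtain ⟨K1, ρ1, hK1, hρ1, hρ1ρ, hρ11, hstep⟩ := step h
  set ρ2 : ℝ := min ρ1 (min (1 / (8 * K)) (1 / (2 * (K1 + 1)))) with hρ2
  have r1 : ρ2 ≤ ρ1 := min_le_left _ _
  have r2 : ρ2 ≤ 1 / (8 * K) := (min_le_right _ _).trans (min_le_left _ _)
  have r3 : ρ2 ≤ 1 / (2 * (K1 + 1)) := (min_le_right _ _).trans (min_le_right _ _)
  have hρ20 : 0 < ρ2 := lt_min hρ1 (lt_min (by positivity) (by positivity))
  have hKρ : K * ρ2 ≤ 1 / 8 := by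
    calc K * ρ2 ≤ K * (1 / (8 * K)) := by gcongr
      _ = 1 / 8 := by field_simp
  have hK1ρ : K1 * ρ2 ≤ 1 / 2 := by
    calc K1 * ρ2 ≤ K1 * (1 / (2 * (K1 + 1))) := by gcongr
      _ ≤ 1 / 2 := by
        rw [mul_one_div, div_le_iff₀ (by positivity)]; linarith
  refine ⟨K1 + 24 * K1 ^ 2, ρ2, by positivity, hρ20, r1.trans hρ1ρ, r1.trans hρ11, hKρ, ?_⟩
  intro w H hb z z' hz hz'
  set t : ℝ := ‖z' - z‖ with ht
  have ht0 : 0 ≤ t := norm_nonneg _
  have ht2 : t ≤ 2 * ρ2 := (norm_sub_le _ _).trans (by linarith)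
  have hKt : K * t ≤ 1 / 4 := by nlinarith
  have hK1t : K1 * t ≤ 1 := by nlinarith
  have hzρ : ‖z‖ ≤ ρ := by linarith
  have hzρ' : ‖z'‖ ≤ ρ := by linarith
  -- the approximations
  let δ : ℕ → ℝ := fun n => ((n + 1 : ℕ) : ℝ) * (K1 * (t / ((n + 1 : ℕ) : ℝ)) ^ (1 + κ))
  let Φ : ℝ → ℝ → ℝ := fun r d => d + K1 * t * ((4 * (K1 * t) * (r + d) ^ 2 + d) ^ 2 +
    2 * (4 * (K1 * t) * (r + d) ^ 2 + d) * r)
  have hap : ∀ n : ℕ, ∃ g : E → E, IsQ g ∧ (∀ x, ‖g x‖ ≤ K1 * t * ‖x‖ ^ 2) ∧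
      ∀ x, ‖x‖ ≤ 1 / 4 → ‖H z z' x - x - g x‖ ≤ Φ ‖x‖ (δ n) := by
    intro n
    set N : ℕ := n + 1 with hN
    have hNpos : (0 : ℝ) < (N : ℝ) := by positivity
    let zi : ℕ → E := fun i => z + ((i : ℝ) / N) • (z' - z)
    have hzi : ∀ i ≤ N, ‖zi i‖ ≤ ρ2 := by
      intro i hi
      have hi' : (i : ℝ) ≤ N := by exact_mod_cast hi
      have a : (i : ℝ) / N ≤ 1 := by rw [div_le_one hNpos]; exact hi'
      have a0 : 0 ≤ (i : ℝ) / N := by positivity
      have e : zi i = (1 - (i : ℝ) / N) • z + ((i : ℝ) / N) • z' := by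
        simp only [zi]; module
      rw [e]
      refine (norm_add_le _ _).trans ?_
      rw [norm_smul, norm_smul, Real.norm_of_nonneg a0, Real.norm_of_nonneg (by linarith)]
      nlinarith
    have hdi : ∀ i, ‖zi (i + 1) - zi i‖ = t / N := by
      intro i
      have e : zi (i + 1) - zi i = ((N : ℝ)⁻¹) • (z' - z) := by
        simp only [zi]; push_cast; module
      rw [e, norm_smul, ← ht, norm_inv, Real.norm_of_nonneg hNpos.le]
      field_simp
    have hex : ∀ i, ∃ c : E → E, i < N → (IsQ c ∧ (∀ x, ‖c x‖ ≤ K1 * (t / N) * ‖x‖ ^ 2) ∧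
        ∀ x, ‖x‖ ≤ 1 / 2 → ‖H (zi i) (zi (i + 1)) x - x - c x‖ ≤ K1 * (t / N) ^ (1 + κ)) := by
      intro i
      by_cases hi : i < N
      · obtain ⟨c, hc1, hc2, hc3⟩ := hstep w H hb (zi i) (zi (i + 1)) ((hzi i hi.le).trans r1)
          ((hzi (i + 1) hi).trans r1)
        rw [hdi] at hc2 hc3
        exact ⟨c, fun _ => ⟨hc1, hc2, hc3⟩⟩
      · exact ⟨fun _ => 0, fun h => absurd h hi⟩
    choose c hc using hex
    refine ⟨fun x => ∑ i ∈ Finset.range N, c i x, IsQ.sum _ fun i hi => (hc i (Finset.mem_range.1 hi)).1,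
      fun x => ?_, fun x hx => ?_⟩
    · refine (norm_sum_le _ _).trans ?_
      refine (Finset.sum_le_card_nsmul _ _ (K1 * (t / N) * ‖x‖ ^ 2)
        fun i hi => (hc i (Finset.mem_range.1 hi)).2.1 x).trans (le_of_eq ?_)
      rw [Finset.card_range, nsmul_eq_mul]; field_simp
    · -- discrete Gronwall
      have hxi : ∀ i ≤ N, ‖H z (zi i) x‖ ≤ 1 / 2 := by
        intro i hi
        have := hb.lip z (zi i) x hzρ (by linarith [hzi i hi]) (by linarith)
        have b : ‖zi i - z‖ ≤ t := by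
          have hi' : (i : ℝ) ≤ N := by exact_mod_cast hi
          have a : (i : ℝ) / N ≤ 1 := by rw [div_le_one hNpos]; exact hi'
          have e : zi i - z = ((i : ℝ) / N) • (z' - z) := by simp [zi]
          rw [e, norm_smul, ← ht, Real.norm_of_nonneg (by positivity)]
          nlinarith
        have e : H z (zi i) x = x + (H z (zi i) x - x) := by abel
        rw [e]
        refine (norm_add_le _ _).trans ?_
        have : K * ‖zi i - z‖ ≤ 1 / 4 := by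
          calc K * ‖zi i - z‖ ≤ K * t := by gcongr
            _ ≤ 1 / 4 := hKt
        linarith
      have e0 : zi 0 = z := by simp [zi]
      have eN : zi N = z' := by
        simp only [zi]; rw [div_self hNpos.ne']; simp
      have hst : ∀ i < N, ‖H z (zi (i + 1)) x - H z (zi i) x - c i (H z (zi i) x)‖ ≤
          K1 * (t / N) ^ (1 + κ) := by
        intro i hi
        have hco := hb.coc z (zi i) (zi (i + 1)) x hzρ (by linarith [hzi i hi.le])
          (by linarith [hzi (i + 1) hi]) (by linarith) (hxi i hi.le)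
        rw [← hco]
        exact (hc i hi).2.2 _ (hxi i hi.le)
      have := (disc (n := N) (x := fun i => H z (zi i) x) (c := c) (τ := K1 * (t / N))
        (ε := K1 * (t / N) ^ (1 + κ)) (by positivity) (by positivity) (fun i hi => (hc i hi).1)
        (fun i hi => (hc i hi).2.1) hxi hst (by
          have : (N : ℝ) * (K1 * (t / N)) = K1 * t := by field_simp
          rw [this]; exact hK1t)).2
      simp only [e0, eN] at this
      rw [hb.self hzρ (by linarith)] at this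
      have e3 : (N : ℝ) * (K1 * (t / N)) = K1 * t := by field_simp
      rw [e3] at this
      exact this
  choose g hg1 hg2 hg3 using hap
  obtain ⟨l, f, hl, hlt, hf, hfb, hft⟩ := IsQ.cluster hg1 hg2
  refine ⟨f, hf, fun x => (hfb x).trans ?_, fun x hx => ?_⟩
  · have : 0 ≤ t * ‖x‖ ^ 2 := by positivity
    nlinarith [sq_nonneg K1]
  · have hδ : Tendsto δ atTop (𝓝 0) := by
      have := (tendsto_aux ht0 (p := 1 + κ) (by linarith [h.hκ])).const_mul K1
      rw [mul_zero] at this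
      refine this.congr fun n => ?_
      simp only [δ]; ring
    have hΦ : Tendsto (fun n => Φ ‖x‖ (δ n)) l (𝓝 (Φ ‖x‖ 0)) := by
      have hcont : Continuous (Φ ‖x‖) := by fun_prop
      exact (hcont.tendsto 0).comp (hδ.mono_left hlt)
    have hlim : Tendsto (fun n => ‖H z z' x - x - g n x‖) l (𝓝 ‖H z z' x - x - f x‖) :=
      (tendsto_const_nhds.sub (hft x)).norm
    refine (le_of_tendsto_of_tendsto' hlim hΦ fun n => hg3 n x hx).trans ?_
    have hx0 := norm_nonneg x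
    have hx1 : ‖x‖ ≤ 1 := by linarith
    have e : Φ ‖x‖ 0 = 16 * K1 ^ 2 * t ^ 2 * (K1 * t) * (‖x‖ * ‖x‖ ^ 3) + 8 * K1 ^ 2 * t ^ 2 * ‖x‖ ^ 3 := by
      simp only [Φ]; ring
    rw [e]
    have a1 : 16 * K1 ^ 2 * t ^ 2 * (K1 * t) * (‖x‖ * ‖x‖ ^ 3) ≤
        16 * K1 ^ 2 * t ^ 2 * 1 * (1 * ‖x‖ ^ 3) := by gcongr
    have a2 : 0 ≤ K1 * t ^ 2 * ‖x‖ ^ 3 := by positivity
    nlinarith

/-- the expansion of `C`, one side -/
lemma expan [FiniteDimensional ℝ E] {C : V → E → E → ℝ} {K s κ ρ : ℝ} (h : Half C K s κ ρ) :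
    ∃ K3 ρ3 : ℝ, 0 ≤ K3 ∧ 0 < ρ3 ∧ ρ3 ≤ ρ ∧ ρ3 ≤ 1 / 4 ∧
      ∀ (v : V) (z : E), ‖z‖ ≤ ρ3 → ∃ G : E → ℝ, IsQ G ∧ (∀ x, ‖G x‖ ≤ K3 * ‖z‖ ^ 2 * ‖x‖ ^ 2) ∧
        ∀ x, ‖x‖ ≤ 1 / 4 → |C v z x - inner ℝ z x - G x| ≤ K3 * ‖z‖ ^ 3 * ‖x‖ ^ 3 := by
  have hK0 : 0 < K := lt_of_lt_of_le one_pos h.hK
  obtain ⟨K2, ρ2, hK2, hρ2, hρ2ρ, hρ21, hKρ, hsew⟩ := sew h
  refine ⟨K2, min ρ2 (1 / 4), hK2, lt_min hρ2 (by norm_num), (min_le_left _ _).trans hρ2ρ,
    min_le_right _ _, ?_⟩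
  intro v z hz'
  have hz : ‖z‖ ≤ ρ2 := hz'.trans (min_le_left _ _)
  obtain ⟨w, H, hw, hb⟩ := h.base v
  have hzρ : ‖z‖ ≤ ρ := hz.trans hρ2ρ
  have h0ρ : ‖(0 : E)‖ ≤ ρ := by rw [norm_zero]; exact h.hρ.le
  set t : ℝ := ‖z‖ with ht
  have ht0 : 0 ≤ t := norm_nonneg _
  have hKt : K * t ≤ 1 / 8 := by nlinarith
  let δ : ℕ → ℝ := fun n => ((n + 1 : ℕ) : ℝ) * (t / ((n + 1 : ℕ) : ℝ)) ^ s
  have hap : ∀ n : ℕ, ∃ G : E → ℝ, IsQ G ∧ (∀ x, ‖G x‖ ≤ K2 * t ^ 2 * ‖x‖ ^ 2) ∧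
      ∀ x, ‖x‖ ≤ 1 / 4 → |C v z x - inner ℝ z x - G x| ≤ K * δ n + K2 * t ^ 3 * ‖x‖ ^ 3 := by
    intro n
    set N : ℕ := n + 1 with hN
    have hNpos : (0 : ℝ) < (N : ℝ) := by positivity
    let zi : ℕ → E := fun i => ((i : ℝ) / N) • z
    have hfr : ∀ i ≤ N, 0 ≤ (i : ℝ) / N ∧ (i : ℝ) / N ≤ 1 := by
      intro i hi
      have hi' : (i : ℝ) ≤ N := by exact_mod_cast hi
      exact ⟨by positivity, by rw [div_le_one hNpos]; exact hi'⟩
    have hzi : ∀ i ≤ N, ‖zi i‖ ≤ t := by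
      intro i hi
      simp only [zi]
      rw [norm_smul, ← ht, Real.norm_of_nonneg (hfr i hi).1]
      nlinarith [(hfr i hi).2]
    have hk : ‖(N : ℝ)⁻¹ • z‖ = t / N := by
      rw [norm_smul, ← ht, norm_inv, Real.norm_of_nonneg hNpos.le]; field_simp
    have hex : ∀ i, ∃ g : E → E, i < N → (IsQ g ∧ (∀ x, ‖g x‖ ≤ K2 * t * ‖x‖ ^ 2) ∧
        ∀ x, ‖x‖ ≤ 1 / 4 → ‖H 0 (zi i) x - x - g x‖ ≤ K2 * t ^ 2 * ‖x‖ ^ 3) := by
      intro i
      by_cases hi : i < N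
      · obtain ⟨g, hg1, hg2, hg3⟩ := hsew w H hb 0 (zi i) (by rw [norm_zero]; exact hρ2.le)
          ((hzi i hi.le).trans hz)
        rw [sub_zero] at hg2 hg3
        have hzi' := hzi i hi.le
        refine ⟨g, fun _ => ⟨hg1, fun x => (hg2 x).trans (by gcongr), fun x hx => (hg3 x hx).trans ?_⟩⟩
        gcongr
      · exact ⟨fun _ => 0, fun h => absurd h hi⟩
    choose g hg using hex
    refine ⟨fun x => ∑ i ∈ Finset.range N, inner ℝ ((N : ℝ)⁻¹ • z) (g i x), ?_, ?_, ?_⟩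
    · exact IsQ.sum _ fun i hi =>
        (hg i (Finset.mem_range.1 hi)).1.comp_lin (innerSL ℝ ((N : ℝ)⁻¹ • z)).toLinearMap
    · intro x
      refine (norm_sum_le _ _).trans ?_
      refine (Finset.sum_le_card_nsmul _ _ ((t / N) * (K2 * t * ‖x‖ ^ 2)) fun i hi => ?_).trans
        (le_of_eq ?_)
      · refine (norm_inner_le_norm _ _).trans ?_
        rw [hk]
        have := (hg i (Finset.mem_range.1 hi)).2.1 x
        gcongr
      · rw [Finset.card_range, nsmul_eq_mul]; field_simp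
    · intro x hx
      have hx1 : ‖x‖ ≤ 1 := by linarith
      have hx2 : ‖x‖ ≤ 1 / 2 := by linarith
      have hH1 : ∀ i ≤ N, ‖H 0 (zi i) x‖ ≤ 1 := by
        intro i hi
        have := hb.lip 0 (zi i) x h0ρ ((hzi i hi).trans hzρ) hx2
        rw [sub_zero] at this
        have e : H 0 (zi i) x = x + (H 0 (zi i) x - x) := by abel
        rw [e]
        refine (norm_add_le _ _).trans ?_
        have : K * ‖zi i‖ ≤ 1 / 8 := by
          calc K * ‖zi i‖ ≤ K * t := by have := hzi i hi; gcongr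
            _ ≤ 1 / 8 := hKt
        linarith
      have hsucc : ∀ i, zi i + (N : ℝ)⁻¹ • z = zi (i + 1) := by
        intro i; simp only [zi]; push_cast; module
      have hterm : ∀ i < N, C v (zi (i + 1)) x - C v (zi i) x =
          C (w (zi i)) ((N : ℝ)⁻¹ • z) (H 0 (zi i) x) := by
        intro i hi
        have := hb.law 0 (zi i) ((N : ℝ)⁻¹ • z) x h0ρ ((hzi i hi.le).trans hzρ)
          (by rw [hsucc]; exact (hzi (i + 1) hi).trans hzρ) hx2
        rw [sub_zero, hsucc, hw] at this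
        exact this
      have h00 : C v (zi 0) x = 0 := by
        have e0 : zi 0 = 0 := by simp [zi]
        have := h.o1 v 0 x (by simp) hx1
        rw [inner_zero_left, norm_zero, Real.zero_rpow (by linarith [h.hs]), mul_zero, sub_zero] at this
        rw [e0]
        exact abs_nonpos_iff.1 this
      have hNN : zi N = z := by simp only [zi]; rw [div_self hNpos.ne']; simp
      have htel : C v z x = ∑ i ∈ Finset.range N, C (w (zi i)) ((N : ℝ)⁻¹ • z) (H 0 (zi i) x) := by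
        have := Finset.sum_range_sub (fun i => C v (zi i) x) N
        rw [h00, hNN, sub_zero] at this
        rw [← this]
        exact Finset.sum_congr rfl fun i hi => hterm i (Finset.mem_range.1 hi)
      have hin : inner ℝ z x = ∑ i ∈ Finset.range N, inner ℝ ((N : ℝ)⁻¹ • z) x := by
        rw [Finset.sum_const, Finset.card_range, nsmul_eq_mul, real_inner_smul_left]; field_simp
      rw [htel, hin, ← Finset.sum_sub_distrib, ← Finset.sum_sub_distrib]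
      rw [← Real.norm_eq_abs]
      refine (norm_sum_le _ _).trans ?_
      refine (Finset.sum_le_card_nsmul _ _
        (K * (t / N) ^ s + (t / N) * (K2 * t ^ 2 * ‖x‖ ^ 3)) fun i hi => ?_).trans (le_of_eq ?_)
      · have hi' := Finset.mem_range.1 hi
        have a1 := h.o1 (w (zi i)) ((N : ℝ)⁻¹ • z) (H 0 (zi i) x) (by
          rw [hk]
          have : t / N ≤ t / 1 := by
            apply div_le_div_of_nonneg_left ht0 one_pos
            rw [hN]; push_cast; linarith [(Nat.cast_nonneg n : (0:ℝ) ≤ n)]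
          rw [div_one] at this
          linarith) (hH1 i hi'.le)
        rw [hk] at a1
        have a2 := (hg i hi').2.2 x hx
        have e : C (w (zi i)) ((N : ℝ)⁻¹ • z) (H 0 (zi i) x) - inner ℝ ((N : ℝ)⁻¹ • z) x -
            inner ℝ ((N : ℝ)⁻¹ • z) (g i x) =
            (C (w (zi i)) ((N : ℝ)⁻¹ • z) (H 0 (zi i) x) -
              inner ℝ ((N : ℝ)⁻¹ • z) (H 0 (zi i) x)) +
            inner ℝ ((N : ℝ)⁻¹ • z) (H 0 (zi i) x - x - g i x) := by
          rw [inner_sub_right, inner_sub_right]; ring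
        rw [e]
        refine (norm_add_le _ _).trans (add_le_add a1 ?_)
        refine (norm_inner_le_norm _ _).trans ?_
        rw [hk]; gcongr
      · rw [Finset.card_range, nsmul_eq_mul]
        simp only [δ]
        rw [← hN]
        field_simp
  choose G hG1 hG2 hG3 using hap
  obtain ⟨l, f, hl, hlt, hf, hfb, hft⟩ := IsQ.cluster hG1 hG2
  refine ⟨f, hf, hfb, fun x hx => ?_⟩
  have hδ : Tendsto (fun n => K * δ n + K2 * t ^ 3 * ‖x‖ ^ 3) l (𝓝 (K * 0 + K2 * t ^ 3 * ‖x‖ ^ 3)) :=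
    (((tendsto_aux ht0 h.hs).mono_left hlt).const_mul K).add_const _
  have hlim : Tendsto (fun n => |C v z x - inner ℝ z x - G n x|) l (𝓝 |C v z x - inner ℝ z x - f x|) :=
    (tendsto_const_nhds.sub (hft x)).abs
  have := le_of_tendsto_of_tendsto' hlim hδ fun n => hG3 n x hx
  simpa using this

end Vale.Agent.P207.H12.XB
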