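import Vale.Agent.P207.H12.XB4

/-!
P207, line N4, step 8.  Part XB5: the biquadratic form `B`, its invariance along both leaves and
the exact second order law of the transitions.
-/

set_option autoImplicit false

namespace Vale.Agent.P207.H12.XB

open Real Filter Topology

variable {E : Type*} [NormedAddCommGroup E] [InnerProductSpace ℝ E] {V : Type*}

/-- `B` is the common second order form of the two expansions of `C`. -/
structure BForm (C : V → E → E → ℝ) (B : V → E → E → ℝ) (M r : ℝ) : Prop where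
  hM : 0 ≤ M
  hr : 0 < r
  hr1 : r ≤ 1 / 4
  qx : ∀ v z, IsQ (B v z)
  qz : ∀ v x, IsQ (fun z => B v z x)
  bd : ∀ v z x, |B v z x| ≤ M * ‖z‖ ^ 2 * ‖x‖ ^ 2
  ex : ∀ v z x, ‖z‖ ≤ r → ‖x‖ ≤ r → |C v z x - inner ℝ z x - B v z x| ≤ M * ‖z‖ ^ 3 * ‖x‖ ^ 3

lemma BForm.flip {C : V → E → E → ℝ} {B : V → E → E → ℝ} {M r : ℝ} (h : BForm C B M r) :
    BForm (fun v x z => C v z x) (fun v x z => B v z x) M r where
  hM := h.hM
  hr := h.hr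
  hr1 := h.hr1
  qx v x := h.qz v x
  qz v z := h.qx v z
  bd v x z := (h.bd v z x).trans (le_of_eq (by ring))
  ex v x z hx hz := by
    have := h.ex v z x hz hx
    rw [real_inner_comm] at this
    refine this.trans (le_of_eq (by ring))

/-- existence of the biquadratic form -/
theorem exists_bform [FiniteDimensional ℝ E] {C : V → E → E → ℝ} {K s κ ρ K' s' κ' ρ' : ℝ}
    (h : Half C K s κ ρ) (hf : Half (fun v x z => C v z x) K' s' κ' ρ') :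
    ∃ (B : V → E → E → ℝ) (M r : ℝ), BForm C B M r := by
  obtain ⟨K3, ρ3, hK3, hρ3, hρ3ρ, hρ34, hG⟩ := expan h
  obtain ⟨K4, ρ4, hK4, hρ4, hρ4ρ, hρ44, hF⟩ := expan hf
  set M : ℝ := max K3 K4 with hMdef
  set r : ℝ := min ρ3 ρ4 with hrdef
  have hM : 0 ≤ M := hK3.trans (le_max_left _ _)
  have hr : 0 < r := lt_min hρ3 hρ4
  have hr3 : r ≤ ρ3 := min_le_left _ _
  have hr4 : r ≤ ρ4 := min_le_right _ _
  have hrq : r ≤ 1 / 4 := hr3.trans hρ34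
  have hGe : ∀ v z, ∃ G : E → ℝ, IsQ G ∧ (‖z‖ ≤ r → (∀ x, ‖G x‖ ≤ M * ‖z‖ ^ 2 * ‖x‖ ^ 2) ∧
      ∀ x, ‖x‖ ≤ 1 / 4 → |C v z x - inner ℝ z x - G x| ≤ M * ‖z‖ ^ 3 * ‖x‖ ^ 3) := by
    intro v z
    by_cases hz : ‖z‖ ≤ r
    · obtain ⟨G, g1, g2, g3⟩ := hG v z (hz.trans hr3)
      refine ⟨G, g1, fun _ => ⟨fun x => (g2 x).trans ?_, fun x hx => (g3 x hx).trans ?_⟩⟩
      · have : K3 ≤ M := le_max_left _ _
        gcongr
      · have : K3 ≤ M := le_max_left _ _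
        gcongr
    · exact ⟨fun _ => 0, IsQ.zero, fun h => absurd h hz⟩
  have hFe : ∀ v x, ∃ G : E → ℝ, IsQ G ∧ (‖x‖ ≤ r →
      ∀ z, ‖z‖ ≤ 1 / 4 → |C v z x - inner ℝ z x - G z| ≤ M * ‖z‖ ^ 3 * ‖x‖ ^ 3) := by
    intro v x
    by_cases hx : ‖x‖ ≤ r
    · obtain ⟨G, g1, g2, g3⟩ := hF v x (hx.trans hr4)
      refine ⟨G, g1, fun _ z hz => ?_⟩
      have := g3 z hz
      rw [real_inner_comm] at this
      refine this.trans ?_
      have h4 : K4 ≤ M := le_max_right _ _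
      calc K4 * ‖x‖ ^ 3 * ‖z‖ ^ 3 ≤ M * ‖x‖ ^ 3 * ‖z‖ ^ 3 := by gcongr
        _ = M * ‖z‖ ^ 3 * ‖x‖ ^ 3 := by ring
    · exact ⟨fun _ => 0, IsQ.zero, fun h => absurd h hx⟩
  choose G g1 g2 using hGe
  choose F f1 f2 using hFe
  -- comparison
  have hcmp : ∀ v z x, ‖z‖ ≤ r → ‖x‖ ≤ r → |F v x z - G v z x| ≤ 2 * M * ‖z‖ ^ 3 * ‖x‖ ^ 3 := by
    intro v z x hz hx
    have a := (g2 v z hz).2 x (hx.trans hrq)
    have b := f2 v x hx z (hz.trans hrq)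
    have e : F v x z - G v z x = (C v z x - inner ℝ z x - G v z x) -
      (C v z x - inner ℝ z x - F v x z) := by ring
    rw [e]
    refine (abs_sub _ _).trans ?_
    linarith
  have hlim0 : ∀ v z x, ‖z‖ ≤ r → Tendsto (fun l : ℝ => (l ^ 2)⁻¹ * F v (l • x) z) (𝓝[>] 0)
      (𝓝 (G v z x)) := by
    intro v z x hz
    rw [tendsto_iff_norm_sub_tendsto_zero]
    have hb : Tendsto (fun l : ℝ => 2 * M * ‖z‖ ^ 3 * ‖x‖ ^ 3 * l) (𝓝[>] 0) (𝓝 0) := by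
      have : Tendsto (fun l : ℝ => 2 * M * ‖z‖ ^ 3 * ‖x‖ ^ 3 * l) (𝓝 0)
          (𝓝 (2 * M * ‖z‖ ^ 3 * ‖x‖ ^ 3 * 0)) := tendsto_id.const_mul _
      rw [mul_zero] at this
      exact this.mono_left nhdsWithin_le_nhds
    have hev : ∀ᶠ l : ℝ in 𝓝[>] 0, 0 < l ∧ l * ‖x‖ ≤ r := by
      have h1 : ∀ᶠ l : ℝ in 𝓝[>] 0, 0 < l := self_mem_nhdsWithin
      have h2 : ∀ᶠ l : ℝ in 𝓝[>] 0, l * ‖x‖ < r := by
        have : Tendsto (fun l : ℝ => l * ‖x‖) (𝓝 0) (𝓝 (0 * ‖x‖)) := tendsto_id.mul_const _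
        rw [zero_mul] at this
        exact (this.mono_left nhdsWithin_le_nhds).eventually (gt_mem_nhds hr)
      filter_upwards [h1, h2] with l a b using ⟨a, b.le⟩
    refine squeeze_zero' (Filter.Eventually.of_forall fun l => norm_nonneg _) ?_ hb
    filter_upwards [hev] with l hl
    obtain ⟨hl0, hlx⟩ := hl
    have hnx : ‖l • x‖ = l * ‖x‖ := by rw [norm_smul, Real.norm_of_nonneg hl0.le]
    have := hcmp v z (l • x) hz (by rw [hnx]; exact hlx)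
    rw [(g1 v z).hom, hnx, smul_eq_mul] at this
    have e : (l ^ 2)⁻¹ * F v (l • x) z - G v z x = (l ^ 2)⁻¹ * (F v (l • x) z - l ^ 2 * G v z x) := by
      field_simp
    rw [e, norm_mul, Real.norm_eq_abs, Real.norm_eq_abs, abs_of_pos (by positivity)]
    calc (l ^ 2)⁻¹ * |F v (l • x) z - l ^ 2 * G v z x| ≤
        (l ^ 2)⁻¹ * (2 * M * ‖z‖ ^ 3 * (l * ‖x‖) ^ 3) := by gcongr
      _ = 2 * M * ‖z‖ ^ 3 * ‖x‖ ^ 3 * l := by field_simp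
  let μ : E → ℝ := fun z => r / (‖z‖ + r)
  have hμ0 : ∀ z, 0 < μ z := fun z => by positivity
  have hμz : ∀ z, ‖μ z • z‖ ≤ r := by
    intro z
    rw [norm_smul, Real.norm_of_nonneg (hμ0 z).le]
    simp only [μ]
    rw [div_mul_eq_mul_div, div_le_iff₀ (by positivity)]
    nlinarith [norm_nonneg z]
  let B : V → E → E → ℝ := fun v z x => ((μ z) ^ 2)⁻¹ * G v (μ z • z) x
  have hlim : ∀ v z x, Tendsto (fun l : ℝ => (l ^ 2)⁻¹ * F v (l • x) z) (𝓝[>] 0) (𝓝 (B v z x)) := by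
    intro v z x
    have := (hlim0 v (μ z • z) x (hμz z)).const_mul ((μ z) ^ 2)⁻¹
    refine this.congr fun l => ?_
    rw [(f1 v (l • x)).hom, smul_eq_mul]
    have := (hμ0 z).ne'
    field_simp
  have hBG : ∀ v z x, ‖z‖ ≤ r → B v z x = G v z x := fun v z x hz =>
    tendsto_nhds_unique (hlim v z x) (hlim0 v z x hz)
  refine ⟨B, M, r, hM, hr, hrq, ?_, ?_, ?_, ?_⟩
  · intro v z
    exact (g1 v (μ z • z)).const_smul ((μ z) ^ 2)⁻¹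
  · intro v x
    exact IsQ.lim (l := 𝓝[>] (0 : ℝ)) (g := fun l z => (l ^ 2)⁻¹ • F v (l • x) z)
      (fun l => (f1 v (l • x)).const_smul _) (fun z => hlim v z x)
  · intro v z x
    have := (g2 v (μ z • z) (hμz z)).1 x
    simp only [B]
    rw [abs_mul, abs_of_pos (by have := hμ0 z; positivity)]
    rw [Real.norm_eq_abs, norm_smul, Real.norm_of_nonneg (hμ0 z).le] at this
    have hh := hμ0 z
    calc ((μ z) ^ 2)⁻¹ * |G v (μ z • z) x| ≤ ((μ z) ^ 2)⁻¹ * (M * (μ z * ‖z‖) ^ 2 * ‖x‖ ^ 2) := by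
          gcongr
      _ = M * ‖z‖ ^ 2 * ‖x‖ ^ 2 := by field_simp
  · intro v z x hz hx
    rw [hBG v z x hz]
    exact (g2 v z hz).2 x (hx.trans hrq)

/-- polar identity in one argument -/
lemma IsQ.polar_smul {g : E → ℝ} (hg : IsQ g) (j k : E) (c : ℝ) :
    g (j + c • k) - g j - g (c • k) = c * (g (j + k) - g j - g k) := by
  have := hg.smul c k j
  rw [add_comm (c • k) j, add_comm k j, smul_eq_mul] at this
  rw [this]; ring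

/-- one scale of the comparison -/
lemma key_l {C1 C2 B1 B2 : E → E → ℝ} {M r K2 : ℝ} {j k : E} {h g : E → E} (hM : 0 ≤ M)
    (hK2 : 0 ≤ K2) (hr1 : r ≤ 1 / 4) (hB1 : ∀ z, IsQ (B1 z)) (hB2 : ∀ z, IsQ (B2 z))
    (bd2 : ∀ z x, |B2 z x| ≤ M * ‖z‖ ^ 2 * ‖x‖ ^ 2)
    (ex1 : ∀ z x, ‖z‖ ≤ r → ‖x‖ ≤ r → |C1 z x - inner ℝ z x - B1 z x| ≤ M * ‖z‖ ^ 3 * ‖x‖ ^ 3)
    (ex2 : ∀ z x, ‖z‖ ≤ r → ‖x‖ ≤ r → |C2 z x - inner ℝ z x - B2 z x| ≤ M * ‖z‖ ^ 3 * ‖x‖ ^ 3)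
    (hg1 : IsQ g) (hg2 : ∀ x, ‖g x‖ ≤ K2 * ‖x‖ ^ 2)
    (hg3 : ∀ x, ‖x‖ ≤ 1 / 4 → ‖h x - x - g x‖ ≤ K2 * ‖x‖ ^ 3)
    (law : ∀ x, ‖x‖ ≤ 1 / 4 → C1 (j + k) x - C1 j x = C2 k (h x))
    (hj : ‖j‖ ≤ r) (hk : ‖k‖ ≤ r) (hjk : ‖j + k‖ ≤ r) {x : E} (hx : ‖x‖ ≤ 1) {l : ℝ}
    (hl0 : 0 < l) (hlr : l ≤ r) (hlr2 : l * (1 + 2 * K2) ≤ r) :
    |B1 (j + k) x - B1 j x - (inner ℝ k (g x) + B2 k x)| ≤
      (2 * M + K2 + M * (4 * K2 ^ 2 + 4 * K2) + M * (1 + 2 * K2) ^ 3) * l := by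
  have hl1 : l ≤ 1 / 4 := hlr.trans hr1
  have hnlx : ‖l • x‖ = l * ‖x‖ := by rw [norm_smul, Real.norm_of_nonneg hl0.le]
  have hnlx' : ‖l • x‖ ≤ l := by rw [hnlx]; nlinarith
  have hj1 : ‖j‖ ≤ 1 := by linarith
  have hk1 : ‖k‖ ≤ 1 := by linarith
  have hjk1 : ‖j + k‖ ≤ 1 := by linarith
  set y : E := l • x with hy
  have hy4 : ‖y‖ ≤ 1 / 4 := by linarith
  have t1 : ‖g y‖ ≤ K2 * l ^ 2 := by
    refine (hg2 _).trans ?_
    gcongr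
  have t2 : ‖h y - y - g y‖ ≤ K2 * l ^ 3 := by
    refine (hg3 _ hy4).trans ?_
    gcongr
  have hl32 : l ^ 3 ≤ l ^ 2 := by nlinarith [sq_nonneg l]
  have t3 : ‖h y - y‖ ≤ 2 * K2 * l ^ 2 := by
    have e : h y - y = (h y - y - g y) + g y := by abel
    rw [e]
    refine (norm_add_le _ _).trans ?_
    nlinarith
  have t4 : ‖h y‖ ≤ l * (1 + 2 * K2) := by
    have e : h y = (h y - y) + y := by abel
    rw [e]
    refine (norm_add_le _ _).trans ?_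
    have : l ^ 2 ≤ l := by nlinarith
    nlinarith
  have e1 := ex1 (j + k) y hjk (by linarith)
  have e2 := ex1 j y hj (by linarith)
  have e3 := ex2 k (h y) hk (t4.trans hlr2)
  have e1' : M * ‖j + k‖ ^ 3 * ‖y‖ ^ 3 ≤ M * l ^ 3 := by
    calc M * ‖j + k‖ ^ 3 * ‖y‖ ^ 3 ≤ M * 1 ^ 3 * l ^ 3 := by gcongr
      _ = M * l ^ 3 := by ring
  have e2' : M * ‖j‖ ^ 3 * ‖y‖ ^ 3 ≤ M * l ^ 3 := by
    calc M * ‖j‖ ^ 3 * ‖y‖ ^ 3 ≤ M * 1 ^ 3 * l ^ 3 := by gcongr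
      _ = M * l ^ 3 := by ring
  have e3' : M * ‖k‖ ^ 3 * ‖h y‖ ^ 3 ≤ M * (1 + 2 * K2) ^ 3 * l ^ 3 := by
    calc M * ‖k‖ ^ 3 * ‖h y‖ ^ 3 ≤ M * 1 ^ 3 * (l * (1 + 2 * K2)) ^ 3 := by gcongr
      _ = M * (1 + 2 * K2) ^ 3 * l ^ 3 := by ring
  have hBk : ∀ u, ‖B2 k u‖ ≤ M * ‖u‖ ^ 2 := by
    intro u
    rw [Real.norm_eq_abs]
    refine (bd2 _ _).trans ?_
    calc M * ‖k‖ ^ 2 * ‖u‖ ^ 2 ≤ M * 1 ^ 2 * ‖u‖ ^ 2 := by gcongr
      _ = M * ‖u‖ ^ 2 := by ring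
  have e4 : |B2 k (h y) - B2 k y| ≤ M * (4 * K2 ^ 2 + 4 * K2) * l ^ 3 := by
    have := (hB2 k).diff_le hBk (h y) y
    rw [Real.norm_eq_abs] at this
    refine this.trans ?_
    calc M * ‖h y - y‖ ^ 2 + 2 * M * ‖h y - y‖ * ‖y‖
        ≤ M * (2 * K2 * l ^ 2) ^ 2 + 2 * M * (2 * K2 * l ^ 2) * l := by gcongr
      _ = 4 * M * K2 ^ 2 * (l * l ^ 3) + 4 * M * K2 * l ^ 3 := by ring
      _ ≤ 4 * M * K2 ^ 2 * (1 * l ^ 3) + 4 * M * K2 * l ^ 3 := by gcongr; linarith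
      _ = M * (4 * K2 ^ 2 + 4 * K2) * l ^ 3 := by ring
  have hlaw := law y hy4
  have e5 : |inner ℝ k (h y - y - g y)| ≤ K2 * l ^ 3 := by
    refine (abs_real_inner_le_norm _ _).trans ?_
    calc ‖k‖ * ‖h y - y - g y‖ ≤ 1 * (K2 * l ^ 3) := by gcongr
      _ = K2 * l ^ 3 := by ring
  have q1 : B1 (j + k) y = l ^ 2 * B1 (j + k) x := (hB1 (j + k)).hom l x
  have q2 : B1 j y = l ^ 2 * B1 j x := (hB1 j).hom l x
  have q3 : B2 k y = l ^ 2 * B2 k x := (hB2 k).hom l x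
  have q4 : inner ℝ k (g y) = l ^ 2 * inner ℝ k (g x) := by
    rw [hy, hg1.hom, real_inner_smul_right]
  have q5 : inner ℝ k (h y - y - g y) = inner ℝ k (h y) - inner ℝ k y - inner ℝ k (g y) := by
    rw [inner_sub_right, inner_sub_right]
  have q6 : inner ℝ (j + k) y = inner ℝ j y + inner ℝ k y := inner_add_left _ _ _
  set Δ : ℝ := B1 (j + k) x - B1 j x - (inner ℝ k (g x) + B2 k x) with hΔ
  have e6 : l ^ 2 * Δ = -(C1 (j + k) y - inner ℝ (j + k) y - B1 (j + k) y)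
      + (C1 j y - inner ℝ j y - B1 j y) + (C2 k (h y) - inner ℝ k (h y) - B2 k (h y))
      + (B2 k (h y) - B2 k y) + inner ℝ k (h y - y - g y) := by
    rw [← hlaw, q5, q6, q1, q2, q3, q4, hΔ]; ring
  have e7 : |l ^ 2 * Δ| ≤ (2 * M + K2 + M * (4 * K2 ^ 2 + 4 * K2) + M * (1 + 2 * K2) ^ 3) * l ^ 3 := by
    rw [e6]
    have f1 := abs_add_le (-(C1 (j + k) y - inner ℝ (j + k) y - B1 (j + k) y)
      + (C1 j y - inner ℝ j y - B1 j y) + (C2 k (h y) - inner ℝ k (h y) - B2 k (h y))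
      + (B2 k (h y) - B2 k y)) (inner ℝ k (h y - y - g y))
    have f2 := abs_add_le (-(C1 (j + k) y - inner ℝ (j + k) y - B1 (j + k) y)
      + (C1 j y - inner ℝ j y - B1 j y) + (C2 k (h y) - inner ℝ k (h y) - B2 k (h y)))
      (B2 k (h y) - B2 k y)
    have f3 := abs_add_le (-(C1 (j + k) y - inner ℝ (j + k) y - B1 (j + k) y)
      + (C1 j y - inner ℝ j y - B1 j y)) (C2 k (h y) - inner ℝ k (h y) - B2 k (h y))
    have f4 := abs_add_le (-(C1 (j + k) y - inner ℝ (j + k) y - B1 (j + k) y))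
      (C1 j y - inner ℝ j y - B1 j y)
    rw [abs_neg] at f4
    have : (2 * M + K2 + M * (4 * K2 ^ 2 + 4 * K2) + M * (1 + 2 * K2) ^ 3) * l ^ 3 =
        M * l ^ 3 + M * l ^ 3 + M * (1 + 2 * K2) ^ 3 * l ^ 3 +
        M * (4 * K2 ^ 2 + 4 * K2) * l ^ 3 + K2 * l ^ 3 := by ring
    rw [this]
    linarith
  rw [abs_mul, abs_of_pos (by positivity)] at e7
  have : l ^ 2 * |Δ| ≤ l ^ 2 * ((2 * M + K2 + M * (4 * K2 ^ 2 + 4 * K2) + M * (1 + 2 * K2) ^ 3) * l) :=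
    e7.trans (le_of_eq (by ring))
  exact le_of_mul_le_mul_left this (by positivity)

/-- the second order identity -/
lemma key_id {C1 C2 B1 B2 : E → E → ℝ} {M r K2 : ℝ} {j k : E} {h g : E → E} (hM : 0 ≤ M)
    (hK2 : 0 ≤ K2) (hr : 0 < r) (hr1 : r ≤ 1 / 4) (hB1 : ∀ z, IsQ (B1 z)) (hB2 : ∀ z, IsQ (B2 z))
    (bd2 : ∀ z x, |B2 z x| ≤ M * ‖z‖ ^ 2 * ‖x‖ ^ 2)
    (ex1 : ∀ z x, ‖z‖ ≤ r → ‖x‖ ≤ r → |C1 z x - inner ℝ z x - B1 z x| ≤ M * ‖z‖ ^ 3 * ‖x‖ ^ 3)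
    (ex2 : ∀ z x, ‖z‖ ≤ r → ‖x‖ ≤ r → |C2 z x - inner ℝ z x - B2 z x| ≤ M * ‖z‖ ^ 3 * ‖x‖ ^ 3)
    (hg1 : IsQ g) (hg2 : ∀ x, ‖g x‖ ≤ K2 * ‖x‖ ^ 2)
    (hg3 : ∀ x, ‖x‖ ≤ 1 / 4 → ‖h x - x - g x‖ ≤ K2 * ‖x‖ ^ 3)
    (law : ∀ x, ‖x‖ ≤ 1 / 4 → C1 (j + k) x - C1 j x = C2 k (h x))
    (hj : ‖j‖ ≤ r) (hk : ‖k‖ ≤ r) (hjk : ‖j + k‖ ≤ r) (x : E) :
    B1 (j + k) x - B1 j x = inner ℝ k (g x) + B2 k x := by
  have hQ : IsQ (fun x => B1 (j + k) x - B1 j x - (inner ℝ k (g x) + B2 k x)) :=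
    ((hB1 _).sub' (hB1 _)).sub' ((hg1.comp_lin (innerSL ℝ k).toLinearMap).add' (hB2 _))
  have hz1 : ∀ x : E, ‖x‖ ≤ 1 →
      ‖B1 (j + k) x - B1 j x - (inner ℝ k (g x) + B2 k x)‖ ≤ 0 := by
    intro x hx
    set C' : ℝ := 2 * M + K2 + M * (4 * K2 ^ 2 + 4 * K2) + M * (1 + 2 * K2) ^ 3 with hC'
    rw [Real.norm_eq_abs]
    have hlim : Tendsto (fun l : ℝ => C' * l) (𝓝[>] 0) (𝓝 0) := by
      have : Tendsto (fun l : ℝ => C' * l) (𝓝 0) (𝓝 (C' * 0)) := tendsto_id.const_mul _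
      rw [mul_zero] at this
      exact this.mono_left nhdsWithin_le_nhds
    refine ge_of_tendsto hlim ?_
    have h1 : ∀ᶠ l : ℝ in 𝓝[>] 0, 0 < l := self_mem_nhdsWithin
    have h2 : ∀ᶠ l : ℝ in 𝓝[>] 0, l < r :=
      (tendsto_id.mono_left nhdsWithin_le_nhds).eventually (gt_mem_nhds hr)
    have h3 : ∀ᶠ l : ℝ in 𝓝[>] 0, l * (1 + 2 * K2) < r := by
      have : Tendsto (fun l : ℝ => l * (1 + 2 * K2)) (𝓝 0) (𝓝 (0 * (1 + 2 * K2))) :=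
        tendsto_id.mul_const _
      rw [zero_mul] at this
      exact (this.mono_left nhdsWithin_le_nhds).eventually (gt_mem_nhds hr)
    filter_upwards [h1, h2, h3] with l a b c
    exact key_l hM hK2 hr1 hB1 hB2 bd2 ex1 ex2 hg1 hg2 hg3 law hj hk hjk hx a b.le c.le
  have := hQ.bound_of_ball one_pos hz1 x
  have h0 : ‖B1 (j + k) x - B1 j x - (inner ℝ k (g x) + B2 k x)‖ ≤ 0 := by
    simpa using this
  have := norm_le_zero_iff.1 h0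
  linarith

/-- invariance and second order law of the transitions -/
theorem half_par [FiniteDimensional ℝ E] {C : V → E → E → ℝ} {K s κ ρ : ℝ} (h : Half C K s κ ρ)
    {B : V → E → E → ℝ} {M r : ℝ} (hB : BForm C B M r) :
    ∃ K5 r5 : ℝ, 0 ≤ K5 ∧ 0 < r5 ∧ r5 ≤ ρ ∧ r5 ≤ 1 / 4 ∧
      ∀ (w : E → V) (H : E → E → E → E), Base C K ρ w H → ∀ z : E, ‖z‖ ≤ r5 →
        (∀ k x, B (w z) k x = B (w 0) k x) ∧ ∀ z' : E, ‖z'‖ ≤ r5 → ∀ x : E, ‖x‖ ≤ r5 → ∀ k : E,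
          |inner ℝ k (H z z' x - x) -
            (B (w 0) (z' - z + k) x - B (w 0) (z' - z) x - B (w 0) k x)| ≤
              K5 * ‖k‖ * ‖z' - z‖ ^ 2 * ‖x‖ ^ 3 := by
  have hK0 : 0 < K := lt_of_lt_of_le one_pos h.hK
  obtain ⟨K2, ρ2, hK2, hρ2, hρ2ρ, hρ21, hKρ, hsew⟩ := sew h
  set r5 : ℝ := min (r / 4) (ρ2 / 4) with hr5
  have hr50 : 0 < r5 := lt_min (by have := hB.hr; linarith) (by linarith)
  have h5r : r5 ≤ r / 4 := min_le_left _ _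
  have h5ρ : r5 ≤ ρ2 / 4 := min_le_right _ _
  have hrr := hB.hr1
  have hr0 := hB.hr
  have hM := hB.hM
  refine ⟨K2, r5, hK2, hr50, by linarith, by linarith, ?_⟩
  intro w H hb
  -- the key identity
  have key : ∀ z z' : E, ‖z‖ ≤ r5 → ‖z'‖ ≤ r5 → ∃ g : E → E, IsQ g ∧
      (∀ x, ‖x‖ ≤ 1 / 4 → ‖H z z' x - x - g x‖ ≤ K2 * ‖z' - z‖ ^ 2 * ‖x‖ ^ 3) ∧
      ∀ k x, ‖k‖ ≤ r5 → B (w z) (z' - z + k) x - B (w z) (z' - z) x =
        inner ℝ k (g x) + B (w z') k x := by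
    intro z z' hz hz'
    obtain ⟨g, hg1, hg2, hg3⟩ := hsew w H hb z z' (by linarith) (by linarith)
    refine ⟨g, hg1, hg3, ?_⟩
    have hj2 : ‖z' - z‖ ≤ 2 * r5 := (norm_sub_le _ _).trans (by linarith)
    have hj1 : ‖z' - z‖ ≤ 1 := by linarith
    intro k x hk
    refine key_id (C1 := C (w z)) (C2 := C (w z')) hM hK2 hr0 hrr (hB.qx _) (hB.qx _) (hB.bd _)
      (hB.ex _) (hB.ex _) hg1 (fun x => (hg2 x).trans ?_) (fun x hx => (hg3 x hx).trans ?_)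
      (fun x hx => hb.law z z' k x (by linarith) (by linarith)
          ((norm_add_le _ _).trans (by linarith)) (by linarith))
      (by linarith) (by linarith) ((norm_add_le _ _).trans (by linarith)) x
    · have : K2 * ‖z' - z‖ ≤ K2 := by nlinarith
      gcongr
    · have : K2 * ‖z' - z‖ ^ 2 ≤ K2 := by
        have : ‖z' - z‖ ^ 2 ≤ 1 := by nlinarith [norm_nonneg (z' - z)]
        nlinarith
      gcongr
  -- invariance of B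
  have inv : ∀ z z' : E, ‖z‖ ≤ r5 → ‖z'‖ ≤ r5 → ∀ k x, B (w z') k x = B (w z) k x := by
    intro z z' hz hz'
    obtain ⟨g, _, _, hk⟩ := key z z' hz hz'
    have small : ∀ k x, ‖k‖ ≤ r5 → B (w z') k x = B (w z) k x := by
      intro k x hk5
      have a := hk k x hk5
      have b := hk (-k) x (by rw [norm_neg]; exact hk5)
      have p := (hB.qz (w z) x).par (z' - z) k
      have n := (hB.qz (w z') x).neg k
      simp only [smul_eq_mul] at p n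
      rw [inner_neg_left, n, ← sub_eq_add_neg] at b
      linarith
    intro k x
    rcases eq_or_ne k 0 with rfl | hk0
    · rw [(hB.qz (w z') x).map0, (hB.qz (w z) x).map0]
    have hkn : 0 < ‖k‖ := norm_pos_iff.2 hk0
    have hs := small ((r5 / ‖k‖) • k) x (by
      rw [norm_smul, Real.norm_of_nonneg (by positivity), div_mul_cancel₀ _ hkn.ne'])
    have a1 := (hB.qz (w z') x).hom (r5 / ‖k‖) k
    have a2 := (hB.qz (w z) x).hom (r5 / ‖k‖) k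
    simp only [smul_eq_mul] at a1 a2
    rw [a1, a2] at hs
    have hne : (r5 / ‖k‖) ^ 2 ≠ 0 := by positivity
    exact mul_left_cancel₀ hne hs
  intro z hz
  have hz0 : ‖(0 : E)‖ ≤ r5 := by rw [norm_zero]; exact hr50.le
  refine ⟨inv 0 z hz0 hz, ?_⟩
  intro z' hz' x hx k
  obtain ⟨g, hg1, hg3, hk⟩ := key z z' hz hz'
  have hx4 : ‖x‖ ≤ 1 / 4 := by linarith
  -- the polar identity for all k
  have hpol : inner ℝ k (g x) = B (w 0) (z' - z + k) x - B (w 0) (z' - z) x - B (w 0) k x := by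
    have small : ∀ k, ‖k‖ ≤ r5 → inner ℝ k (g x) =
        B (w 0) (z' - z + k) x - B (w 0) (z' - z) x - B (w 0) k x := by
      intro k hk5
      have a := hk k x hk5
      rw [inv 0 z hz0 hz, inv 0 z hz0 hz, inv 0 z' hz0 hz'] at a
      linarith
    rcases eq_or_ne k 0 with rfl | hk0
    · simp [(hB.qz (w 0) x).map0]
    have hkn : 0 < ‖k‖ := norm_pos_iff.2 hk0
    have hs := small ((r5 / ‖k‖) • k) (by
      rw [norm_smul, Real.norm_of_nonneg (by positivity), div_mul_cancel₀ _ hkn.ne'])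
    have hp := (hB.qz (w 0) x).polar_smul (z' - z) k (r5 / ‖k‖)
    rw [hp, real_inner_smul_left] at hs
    have hne : (r5 / ‖k‖) ≠ 0 := by positivity
    exact mul_left_cancel₀ hne hs
  rw [← hpol, ← inner_sub_right]
  refine (abs_real_inner_le_norm _ _).trans ?_
  calc ‖k‖ * ‖H z z' x - x - g x‖ ≤ ‖k‖ * (K2 * ‖z' - z‖ ^ 2 * ‖x‖ ^ 3) := by
        gcongr; exact hg3 x hx4
    _ = K2 * ‖k‖ * ‖z' - z‖ ^ 2 * ‖x‖ ^ 3 := by ring

end Vale.Agent.P207.H12.XB
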